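import Mathlib

namespace Vale.Agent.Results.P067.SkeletonMonotone

open Finset

/-- A finite simplicial complex with vertices in `ℕ`: a finite family of nonempty finite sets,
closed under passing to nonempty subsets. -/
structure Cx where
  faces : Finset (Finset ℕ)
  ne : ∀ s ∈ faces, s.Nonempty
  down : ∀ s ∈ faces, ∀ t, t ⊆ s → t.Nonempty → t ∈ faces

/-- `X(i)`: the faces with `i + 1` vertices. -/
def Cx.F (X : Cx) (i : ℕ) : Finset (Finset ℕ) := X.faces.filter (fun s => s.card = i + 1)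

/-- pure `d`-dimensional: every face lies in a face with `d + 1` vertices. -/
def Cx.Pure (X : Cx) (d : ℕ) : Prop := ∀ s ∈ X.faces, ∃ t ∈ X.F d, s ⊆ t

/-- the weight `w_i(s)` of the problem, for a `d`-dimensional complex. -/
noncomputable def Cx.w (X : Cx) (d i : ℕ) (s : Finset ℕ) : ℝ :=
  (((X.F d).filter (fun t => s ⊆ t)).card : ℝ) /
    ((((d + 1).choose (i + 1) : ℕ) : ℝ) * ((X.F d).card : ℝ))

/-- the weighted norm of an `i`-cochain. -/
noncomputable def Cx.norm (X : Cx) (d i : ℕ) (f : Finset ℕ → ZMod 2) : ℝ :=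
  ∑ s ∈ (X.F i).filter (fun s => f s ≠ 0), X.w d i s

/-- coboundary from functions on `k`-element sets to functions on `(k+1)`-element sets. -/
def cob (k : ℕ) (f : Finset ℕ → ZMod 2) (t : Finset ℕ) : ZMod 2 := ∑ s ∈ t.powersetCard k, f s

/-- `ε`-coboundary expander of dimension `d`. -/
def Cx.CobExp (X : Cx) (d : ℕ) (ε : ℝ) : Prop :=
  ∀ i, i < d → ∀ f : Finset ℕ → ZMod 2, ∃ h : Finset ℕ → ZMod 2,
    ε * X.norm d i (fun s => f s - cob i h s) ≤ X.norm d (i + 1) (cob (i + 1) f)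

/-- every vertex lies in at most `D` faces of dimension `d`. -/
def Cx.DegLE (X : Cx) (d D : ℕ) : Prop :=
  ∀ v : ℕ, ((X.F d).filter (fun t => v ∈ t)).card ≤ D

/-- connectedness of the 1-skeleton. -/
def Cx.Conn (X : Cx) : Prop :=
  ∀ u v : ℕ, {u} ∈ X.faces → {v} ∈ X.faces →
    Relation.ReflTransGen (fun a b => ({a, b} : Finset ℕ) ∈ X.faces) u v

/-- the statement of Q1 for the dimension `d`. -/
def Good (d : ℕ) : Prop :=
  ∃ D : ℕ, ∃ ε : ℝ, 0 < ε ∧ ∀ N : ℕ, ∃ X : Cx,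
    X.Pure d ∧ X.Conn ∧ N ≤ (X.F 0).card ∧ X.DegLE d D ∧ X.CobExp d ε

/-- the `d`-skeleton. -/
def Cx.skel (X : Cx) (d : ℕ) : Cx where
  faces := X.faces.filter (fun s => s.card ≤ d + 1)
  ne := fun s hs => X.ne s (Finset.mem_filter.1 hs).1
  down := fun s hs t hts htn => Finset.mem_filter.2
    ⟨X.down s (Finset.mem_filter.1 hs).1 t hts htn,
      (Finset.card_le_card hts).trans (Finset.mem_filter.1 hs).2⟩

lemma skel_F (X : Cx) (d i : ℕ) (hi : i ≤ d) : (X.skel d).F i = X.F i := by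
  ext s
  simp only [Cx.F, Cx.skel, Finset.mem_filter]
  constructor
  · rintro ⟨⟨h1, _⟩, h3⟩; exact ⟨h1, h3⟩
  · rintro ⟨h1, h3⟩; exact ⟨⟨h1, by omega⟩, h3⟩

/-- double counting of flags `s ⊆ ρ ⊆ τ`. -/
lemma flags (X : Cx) (d : ℕ) (s : Finset ℕ) :
    ∑ ρ ∈ (X.F d).filter (fun ρ => s ⊆ ρ), ((X.F (d + 1)).filter (fun τ => ρ ⊆ τ)).card
      = (d + 2 - s.card) * ((X.F (d + 1)).filter (fun τ => s ⊆ τ)).card := by
  have h := Finset.sum_card_bipartiteAbove_eq_sum_card_bipartiteBelow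
    (s := (X.F d).filter (fun ρ => s ⊆ ρ)) (t := (X.F (d + 1)).filter (fun τ => s ⊆ τ))
    (fun ρ τ => ρ ⊆ τ)
  have h1 : ∀ ρ ∈ (X.F d).filter (fun ρ => s ⊆ ρ),
      (Finset.bipartiteAbove (fun ρ τ => ρ ⊆ τ) ((X.F (d + 1)).filter (fun τ => s ⊆ τ)) ρ).card
        = ((X.F (d + 1)).filter (fun τ => ρ ⊆ τ)).card := by
    intro ρ hρ
    congr 1
    ext τ
    simp only [Finset.bipartiteAbove, Finset.mem_filter] at hρ ⊢
    constructor
    · rintro ⟨⟨a, _⟩, c⟩; exact ⟨a, c⟩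
    · rintro ⟨a, c⟩; exact ⟨⟨a, hρ.2.trans c⟩, c⟩
  have h2 : ∀ τ ∈ (X.F (d + 1)).filter (fun τ => s ⊆ τ),
      (Finset.bipartiteBelow (fun ρ τ => ρ ⊆ τ) ((X.F d).filter (fun ρ => s ⊆ ρ)) τ).card
        = d + 2 - s.card := by
    intro τ hτ
    simp only [Cx.F, Finset.mem_filter] at hτ
    obtain ⟨⟨hτf, hτc⟩, hsτ⟩ := hτ
    have : Finset.bipartiteBelow (fun ρ τ => ρ ⊆ τ) ((X.F d).filter (fun ρ => s ⊆ ρ)) τ
        = (τ \ s).image (fun v => τ.erase v) := by
      ext ρ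
      simp only [Finset.bipartiteBelow, Cx.F, Finset.mem_filter, Finset.mem_image,
        Finset.mem_sdiff]
      constructor
      · rintro ⟨⟨⟨hρf, hρc⟩, hsρ⟩, hρτ⟩
        have hc : (τ \ ρ).card = 1 := by
          rw [Finset.card_sdiff_of_subset hρτ]; omega
        obtain ⟨v, hv⟩ := Finset.card_eq_one.1 hc
        have hvm : v ∈ τ \ ρ := by rw [hv]; exact Finset.mem_singleton_self v
        rw [Finset.mem_sdiff] at hvm
        refine ⟨v, ⟨hvm.1, fun h => hvm.2 (hsρ h)⟩, ?_⟩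
        ext u
        rw [Finset.mem_erase]
        constructor
        · rintro ⟨hne, hu⟩
          by_contra hcon
          have : u ∈ τ \ ρ := Finset.mem_sdiff.2 ⟨hu, hcon⟩
          rw [hv, Finset.mem_singleton] at this
          exact hne this
        · intro hu
          exact ⟨fun h => hvm.2 (h ▸ hu), hρτ hu⟩
      · rintro ⟨v, ⟨hvτ, hvs⟩, rfl⟩
        have hcard : (τ.erase v).card = d + 1 := by
          rw [Finset.card_erase_of_mem hvτ]; omega
        refine ⟨⟨⟨X.down τ hτf _ (Finset.erase_subset _ _) ?_, hcard⟩, ?_⟩,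
          Finset.erase_subset _ _⟩
        · rw [← Finset.card_pos]; omega
        · intro u hu
          exact Finset.mem_erase.2 ⟨fun h => hvs (h ▸ hu), hsτ hu⟩
    rw [this, Finset.card_image_of_injOn, Finset.card_sdiff_of_subset hsτ, hτc]
    intro v hv v' hv' hvv
    simp only [Finset.coe_sdiff, Set.mem_sdiff, Finset.mem_coe] at hv hv'
    by_contra hne
    have : v ∈ τ.erase v' := Finset.mem_erase.2 ⟨hne, hv.1⟩
    have hvv' : τ.erase v = τ.erase v' := hvv
    rw [← hvv'] at this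
    exact (Finset.notMem_erase v τ) this
  rw [Finset.sum_congr rfl h1, Finset.sum_congr rfl h2] at h
  rw [h]
  simp [mul_comm]

/-- comparison of the two degree functions -/
lemma deg_bounds (X : Cx) (d D : ℕ) (hp : X.Pure (d + 1)) (hD : X.DegLE (d + 1) D)
    (s : Finset ℕ) :
    ((X.F d).filter (fun ρ => s ⊆ ρ)).card
        ≤ (d + 2 - s.card) * ((X.F (d + 1)).filter (fun τ => s ⊆ τ)).card ∧
    (d + 2 - s.card) * ((X.F (d + 1)).filter (fun τ => s ⊆ τ)).card
        ≤ D * ((X.F d).filter (fun ρ => s ⊆ ρ)).card := by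
  rw [← flags X d s]
  constructor
  · calc ((X.F d).filter (fun ρ => s ⊆ ρ)).card
        = ∑ _ρ ∈ (X.F d).filter (fun ρ => s ⊆ ρ), 1 := by simp
      _ ≤ _ := by
        apply Finset.sum_le_sum
        intro ρ hρ
        have hρf : ρ ∈ X.faces := (Finset.mem_filter.1 (Finset.mem_filter.1 hρ).1).1
        obtain ⟨t, ht, hρt⟩ := hp ρ hρf
        exact Finset.card_pos.2 ⟨t, Finset.mem_filter.2 ⟨ht, hρt⟩⟩
  · have hle : ∑ ρ ∈ (X.F d).filter (fun ρ => s ⊆ ρ), ((X.F (d + 1)).filter (fun τ => ρ ⊆ τ)).card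
        ≤ ∑ _ρ ∈ (X.F d).filter (fun ρ => s ⊆ ρ), D := by
      apply Finset.sum_le_sum
      intro ρ hρ
      have hρf : ρ ∈ X.faces := (Finset.mem_filter.1 (Finset.mem_filter.1 hρ).1).1
      obtain ⟨v, hv⟩ := X.ne ρ hρf
      refine le_trans (Finset.card_le_card ?_) (hD v)
      intro τ hτ
      rw [Finset.mem_filter] at hτ ⊢
      exact ⟨hτ.1, hτ.2 hv⟩
    refine hle.trans (le_of_eq ?_)
    simp [mul_comm]

lemma top_bounds (X : Cx) (d D : ℕ) (hp : X.Pure (d + 1)) (hD : X.DegLE (d + 1) D) :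
    (X.F d).card ≤ (d + 2) * (X.F (d + 1)).card ∧
    (d + 2) * (X.F (d + 1)).card ≤ D * (X.F d).card := by
  have h := deg_bounds X d D hp hD ∅
  simpa using h

/-- comparison of the weights of `X` (dimension `d+1`) and of its `d`-skeleton -/
lemma w_compare (X : Cx) (d D i : ℕ) (hp : X.Pure (d + 1)) (hD : X.DegLE (d + 1) D)
    (hne : 0 < (X.F (d + 1)).card) (hi : i ≤ d) (s : Finset ℕ) (hs : s.card = i + 1) :
    (X.skel d).w d i s ≤ D * X.w (d + 1) i s ∧ X.w (d + 1) i s ≤ D * (X.skel d).w d i s := by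
  unfold Cx.w
  rw [skel_F X d d le_rfl]
  obtain ⟨hd1, hd2⟩ := deg_bounds X d D hp hD s
  obtain ⟨ht1, ht2⟩ := top_bounds X d D hp hD
  rw [hs] at hd1 hd2
  have hch := Nat.choose_mul_succ_eq (d + 1) (i + 1)
  set a := ((X.F (d + 1)).filter (fun τ => s ⊆ τ)).card
  set a' := ((X.F d).filter (fun ρ => s ⊆ ρ)).card
  set T := (X.F (d + 1)).card
  set T' := (X.F d).card
  set C1 := (d + 1).choose (i + 1)
  set C2 := (d + 1 + 1).choose (i + 1)
  set m := d + 2 - (i + 1)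
  have hC1 : 0 < C1 := Nat.choose_pos (by omega)
  have hC2 : 0 < C2 := Nat.choose_pos (by omega)
  have hT' : 0 < T' := by
    rcases Nat.eq_zero_or_pos T' with h | h
    · rw [h] at ht2; simp at ht2; omega
    · exact h
  have hTr : (0 : ℝ) < T := by exact_mod_cast hne
  have hT'r : (0 : ℝ) < T' := by exact_mod_cast hT'
  have hC1r : (0 : ℝ) < C1 := by exact_mod_cast hC1
  have hC2r : (0 : ℝ) < C2 := by exact_mod_cast hC2
  have e1 : (a' : ℝ) ≤ m * a := by exact_mod_cast hd1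
  have e2 : (m : ℝ) * a ≤ D * a' := by exact_mod_cast hd2
  have e3 : (T' : ℝ) ≤ (d + 2) * T := by exact_mod_cast ht1
  have e4 : ((d : ℝ) + 2) * T ≤ D * T' := by exact_mod_cast ht2
  have e5 : (C1 : ℝ) * (d + 2) = C2 * m := by
    have : (C1 : ℝ) * ((d + 1 + 1 : ℕ) : ℝ) = C2 * m := by exact_mod_cast hch
    rw [← this]; push_cast; ring
  have ha : (0 : ℝ) ≤ a := Nat.cast_nonneg _
  have ha' : (0 : ℝ) ≤ a' := Nat.cast_nonneg _
  have hDr : (0 : ℝ) ≤ D := Nat.cast_nonneg _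
  constructor
  · rw [← mul_div_assoc, div_le_div_iff₀ (by positivity) (by positivity)]
    -- a' * (C2 * T) ≤ D * a * (C1 * T')
    calc (a' : ℝ) * (C2 * T) ≤ (m * a) * (C2 * T) := by
          apply mul_le_mul_of_nonneg_right e1 (by positivity)
      _ = a * (C1 * ((d + 2) * T)) := by
          have : (m : ℝ) * a * (C2 * T) = a * ((C2 * m) * T) := by ring
          rw [this, ← e5]; ring
      _ ≤ a * (C1 * (D * T')) := by
          apply mul_le_mul_of_nonneg_left _ ha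
          apply mul_le_mul_of_nonneg_left e4 hC1r.le
      _ = D * a * (C1 * T') := by ring
  · rw [← mul_div_assoc, div_le_div_iff₀ (by positivity) (by positivity)]
    -- a * (C1 * T') ≤ D * a' * (C2 * T)
    calc (a : ℝ) * (C1 * T') ≤ a * (C1 * ((d + 2) * T)) := by
          apply mul_le_mul_of_nonneg_left _ ha
          apply mul_le_mul_of_nonneg_left e3 hC1r.le
      _ = (m * a) * (C2 * T) := by
          have : (m : ℝ) * a * (C2 * T) = a * ((C2 * m) * T) := by ring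
          rw [this, ← e5]; ring
      _ ≤ (D * a') * (C2 * T) := by
          apply mul_le_mul_of_nonneg_right e2 (by positivity)

lemma norm_compare (X : Cx) (d D i : ℕ) (hp : X.Pure (d + 1)) (hD : X.DegLE (d + 1) D)
    (hne : 0 < (X.F (d + 1)).card) (hi : i ≤ d) (f : Finset ℕ → ZMod 2) :
    (X.skel d).norm d i f ≤ D * X.norm (d + 1) i f ∧
      X.norm (d + 1) i f ≤ D * (X.skel d).norm d i f := by
  unfold Cx.norm
  rw [skel_F X d i hi, Finset.mul_sum, Finset.mul_sum]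
  constructor
  · apply Finset.sum_le_sum
    intro s hs
    have hc : s.card = i + 1 := (Finset.mem_filter.1 (Finset.mem_filter.1 hs).1).2
    exact (w_compare X d D i hp hD hne hi s hc).1
  · apply Finset.sum_le_sum
    intro s hs
    have hc : s.card = i + 1 := (Finset.mem_filter.1 (Finset.mem_filter.1 hs).1).2
    exact (w_compare X d D i hp hD hne hi s hc).2

lemma norm_nonneg (X : Cx) (d i : ℕ) (f : Finset ℕ → ZMod 2) : 0 ≤ X.norm d i f := by
  unfold Cx.norm Cx.w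
  apply Finset.sum_nonneg
  intro s _
  positivity

/-- the quantitative skeleton statement -/
lemma skel_main (X : Cx) (d D : ℕ) (ε : ℝ) (hε : 0 < ε) (hd : 1 ≤ d) (hp : X.Pure (d + 1))
    (hc : X.Conn) (hD : X.DegLE (d + 1) D) (hne : 0 < (X.F (d + 1)).card)
    (hE : X.CobExp (d + 1) ε) :
    (X.skel d).Pure d ∧ (X.skel d).Conn ∧ (X.skel d).F 0 = X.F 0 ∧
      (X.skel d).DegLE d ((d + 1) * D) ∧ (X.skel d).CobExp d (ε / (D : ℝ) ^ 2) := by
  have hDpos : 0 < D := by
    obtain ⟨t, ht⟩ := Finset.card_pos.1 hne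
    obtain ⟨v, hv⟩ := X.ne t (Finset.mem_filter.1 ht).1
    exact lt_of_lt_of_le (Finset.card_pos.2 ⟨t, Finset.mem_filter.2 ⟨ht, hv⟩⟩) (hD v)
  have hDr : (0 : ℝ) < D := by exact_mod_cast hDpos
  refine ⟨?_, ?_, skel_F X d 0 (Nat.zero_le d), ?_, ?_⟩
  · intro s hs
    rw [skel_F X d d le_rfl]
    obtain ⟨hsf, hsc⟩ := Finset.mem_filter.1 hs
    obtain ⟨t, ht, hst⟩ := hp s hsf
    obtain ⟨htf, htc⟩ := Finset.mem_filter.1 ht
    obtain ⟨ρ, hsρ, hρt, hρc⟩ := Finset.exists_subsuperset_card_eq hst hsc (by omega : d + 1 ≤ t.card)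
    refine ⟨ρ, Finset.mem_filter.2 ⟨X.down t htf ρ hρt ?_, hρc⟩, hsρ⟩
    rw [← Finset.card_pos]; omega
  · intro u v hu hv
    have hu' := (Finset.mem_filter.1 hu).1
    have hv' := (Finset.mem_filter.1 hv).1
    refine Relation.ReflTransGen.mono ?_ u v (hc u v hu' hv')
    intro a b hab
    refine Finset.mem_filter.2 ⟨hab, ?_⟩
    exact (Finset.card_le_two).trans (by omega)
  · intro v
    rw [skel_F X d d le_rfl]
    have h := (deg_bounds X d D hp hD {v}).1
    simp only [Finset.singleton_subset_iff, Finset.card_singleton] at h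
    calc _ ≤ (d + 2 - 1) * ((X.F (d + 1)).filter (fun τ => v ∈ τ)).card := h
      _ ≤ (d + 1) * D := Nat.mul_le_mul (by omega) (hD v)
  · intro i hi f
    obtain ⟨h, hh⟩ := hE i (by omega) f
    refine ⟨h, ?_⟩
    have n1 := (norm_compare X d D i hp hD hne (by omega) (fun s => f s - cob i h s)).1
    have n2 := (norm_compare X d D (i + 1) hp hD hne (by omega) (cob (i + 1) f)).2
    have hpos := norm_nonneg X (d + 1) i (fun s => f s - cob i h s)
    calc ε / (D : ℝ) ^ 2 * (X.skel d).norm d i (fun s => f s - cob i h s)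
        ≤ ε / (D : ℝ) ^ 2 * (D * X.norm (d + 1) i (fun s => f s - cob i h s)) := by
          apply mul_le_mul_of_nonneg_left n1 (by positivity)
      _ = (ε * X.norm (d + 1) i (fun s => f s - cob i h s)) / D := by
          field_simp
      _ ≤ X.norm (d + 1) (i + 1) (cob (i + 1) f) / D := by
          apply div_le_div_of_nonneg_right hh hDr.le
      _ ≤ (D * (X.skel d).norm d (i + 1) (cob (i + 1) f)) / D := by
          apply div_le_div_of_nonneg_right n2 hDr.le
      _ = (X.skel d).norm d (i + 1) (cob (i + 1) f) := by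
          field_simp

lemma good_step (d : ℕ) (hd : 1 ≤ d) (h : Good (d + 1)) : Good d := by
  obtain ⟨D, ε, hε, hX⟩ := h
  have hX1 := hX 1
  obtain ⟨X1, hp1, -, hN1, hD1, -⟩ := hX1
  have hDpos : 0 < D := by
    obtain ⟨s, hs⟩ := Finset.card_pos.1 (lt_of_lt_of_le Nat.zero_lt_one hN1)
    obtain ⟨t, ht, -⟩ := hp1 s (Finset.mem_filter.1 hs).1
    obtain ⟨v, hv⟩ := X1.ne t (Finset.mem_filter.1 ht).1
    exact lt_of_lt_of_le (Finset.card_pos.2 ⟨t, Finset.mem_filter.2 ⟨ht, hv⟩⟩) (hD1 v)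
  have hDr : (0 : ℝ) < D := by exact_mod_cast hDpos
  refine ⟨(d + 1) * D, ε / (D : ℝ) ^ 2, by positivity, ?_⟩
  intro N
  obtain ⟨X, hp, hc, hN, hD, hE⟩ := hX (N + 1)
  have hne : 0 < (X.F (d + 1)).card := by
    obtain ⟨s, hs⟩ := Finset.card_pos.1 (lt_of_lt_of_le (Nat.succ_pos N) hN)
    obtain ⟨t, ht, -⟩ := hp s (Finset.mem_filter.1 hs).1
    exact Finset.card_pos.2 ⟨t, ht⟩
  obtain ⟨a, b, c, e, g⟩ := skel_main X d D ε hε hd hp hc hD hne hE
  exact ⟨X.skel d, a, b, by rw [c]; omega, e, g⟩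

lemma good_mono : ∀ d d' : ℕ, 1 ≤ d → d ≤ d' → Good d' → Good d := by
  intro d d' hd hdd'
  induction d', hdd' using Nat.le_induction with
  | base => exact id
  | succ n hn ih => exact fun h => ih (good_step n (by omega) h)

theorem result :
    (∀ d d' : ℕ, 1 ≤ d → d ≤ d' → Good d' → Good d) ∧
    ((∀ d : ℕ, 3 ≤ d → Good d) ↔ ∀ n : ℕ, ∃ d : ℕ, n ≤ d ∧ Good d) := by
  refine ⟨good_mono, ?_, ?_⟩
  · intro h n
    exact ⟨n + 3, by omega, h (n + 3) (by omega)⟩
  · intro h d hd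
    obtain ⟨d', hd', hg⟩ := h d
    exact good_mono d d' (by omega) hd' hg

end Vale.Agent.Results.P067.SkeletonMonotone
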